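import Vale.Agent.H13.CF.Defs

/-!
# The clique `Kq G v y` of an edge and the outer neighbourhoods `Wq G v y x`

Standing: `h : Std G m`, `hd : DiamondFree G`, `hvy : G.Adj v y`, `K = Kq G v y`.
Proof sketches.
* `Kq_clique`: two common neighbours `z, z'` of `v` and `y` satisfy `z ~ y ~ z'` inside the
  neighbourhood of `v`, so `z ~ z'` (`hd`); `v` and `y` are adjacent to each other and to all
  common neighbours.
* `Kq_card_le`: otherwise `hasCycle_of_clique` gives a cycle of length `m`.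
* `Kq_unique`: let `x ∈ K`, `w ∉ K`, `x ~ w`, and suppose `w ~ k` for some `k ∈ K`, `k ≠ x`.
  For every `k' ∈ K` other than `x, k`: `w ~ k ~ k'` inside the neighbourhood of `x`, so
  `w ~ k'`. Hence `w` is adjacent to every element of `K`, in particular to `v` and to `y`, so
  `w ∈ K`: contradiction.
-/

namespace Vale.Agent.H13.CF

open SimpleGraph Vale.Agent.H29.CR

variable {V : Type*} [Fintype V] [DecidableEq V] {G : SimpleGraph V} [DecidableRel G.Adj]
  {m : ℕ}

theorem mem_Kq {v y z : V} :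
    z ∈ Kq G v y ↔ z = v ∨ z = y ∨ (G.Adj v z ∧ G.Adj y z) := by
  simp [Kq, Finset.mem_insert, Finset.mem_inter, mem_neighborFinset]

theorem mem_Wq {v y x w : V} : w ∈ Wq G v y x ↔ G.Adj x w ∧ w ∉ Kq G v y := by
  simp [Wq, Finset.mem_sdiff, mem_neighborFinset]

theorem Kq_clique (hd : DiamondFree G) {v y : V} (hvy : G.Adj v y) :
    G.IsClique (Kq G v y : Set V) := by
  intro a ha b hb hab
  rw [Finset.mem_coe, mem_Kq] at ha hb
  rcases ha with rfl | rfl | ⟨hva, hya⟩
  · rcases hb with rfl | rfl | ⟨hvb, _⟩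
    · exact absurd rfl hab
    · exact hvy
    · exact hvb
  · rcases hb with rfl | rfl | ⟨_, hyb⟩
    · exact hvy.symm
    · exact absurd rfl hab
    · exact hyb
  · rcases hb with rfl | rfl | ⟨hvb, hyb⟩
    · exact hva.symm
    · exact hya.symm
    · exact hd v a y b hva hvy hvb hya.symm hyb hab

theorem Kq_card_ge {v y : V} (hvy : G.Adj v y) : 2 ≤ (Kq G v y).card := by
  have h1 : v ∈ Kq G v y := mem_Kq.2 (Or.inl rfl)
  have h2 : y ∈ Kq G v y := mem_Kq.2 (Or.inr (Or.inl rfl))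
  exact Finset.one_lt_card.2 ⟨v, h1, y, h2, hvy.ne⟩

theorem Std.Kq_card_le (h : Std G m) (hd : DiamondFree G) {v y : V} (hvy : G.Adj v y) :
    (Kq G v y).card + 1 ≤ m := by
  by_contra hc
  have h6 := h.hm
  exact h.nocyc (hasCycle_of_clique G (Kq G v y) (Kq_clique hd hvy) m (by omega) (by omega))

/-- A vertex outside `K` has at most one neighbour in `K`. -/
theorem Kq_unique (hd : DiamondFree G) {v y : V} (hvy : G.Adj v y) {x w k : V}
    (hx : x ∈ Kq G v y) (hw : w ∉ Kq G v y) (hxw : G.Adj x w) (hk : k ∈ Kq G v y)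
    (hkx : k ≠ x) : ¬ G.Adj w k := by
  intro hwk
  have hcl := Kq_clique hd hvy
  have hxk : G.Adj x k := hcl (Finset.mem_coe.2 hx) (Finset.mem_coe.2 hk) hkx.symm
  have hall : ∀ z, z ∈ Kq G v y → G.Adj w z := by
    intro z hz
    by_cases hzx : z = x
    · rw [hzx]; exact hxw.symm
    by_cases hzk : z = k
    · rw [hzk]; exact hwk
    have hxz : G.Adj x z := hcl (Finset.mem_coe.2 hx) (Finset.mem_coe.2 hz) (Ne.symm hzx)
    have hkz : G.Adj k z := hcl (Finset.mem_coe.2 hk) (Finset.mem_coe.2 hz) (Ne.symm hzk)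
    have hwz : w ≠ z := fun e => hw (e ▸ hz)
    exact hd x w k z hxw hxk hxz hwk hkz hwz
  have hv : G.Adj w v := hall v (mem_Kq.2 (Or.inl rfl))
  have hy : G.Adj w y := hall y (mem_Kq.2 (Or.inr (Or.inl rfl)))
  exact hw (mem_Kq.2 (Or.inr (Or.inr ⟨hv.symm, hy.symm⟩)))

end Vale.Agent.H13.CF
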