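import Vale.Agent.H13.CF.Clq

/-!
# The outer neighbourhoods `Wq G v y x` and far neighbours

Standing: `h : Std G m`, `hd : DiamondFree G`, `hvy : G.Adj v y`, `K = Kq G v y`.
Proof sketches.
* `Wq_clique`: for `w, w' ∈ Wq G v y x` pick `k ∈ K`, `k ≠ x` (`v` or `y`); `w, w'` are not
  adjacent to `k` (`Kq_unique`), so `h.claw x w w' k` gives `w ~ w'`.
* `Wq_card`: `K.erase x` is contained in `G.neighborFinset x` and
  `Wq G v y x = G.neighborFinset x \ K.erase x` (as `x` is not its own neighbour), so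
  `(Wq G v y x).card = G.degree x - (K.card - 1)`; use `h.deg x`.
* `Wq_disjoint`: `w ∈ Wq G v y x'` means `x' ~ w`, against `Kq_unique` (with `k = x'`).
* `exists_far`: otherwise every neighbour of `w` other than `x` is adjacent to `x`; then the
  closed neighbourhood of `w` is a clique (two such neighbours `u, u'` satisfy `u ~ x ~ u'`
  inside the neighbourhood of `w`), it has `G.degree w + 1 ≥ m` vertices, and
  `hasCycle_of_clique` contradicts `h.nocyc`.
-/

namespace Vale.Agent.H13.CF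

open SimpleGraph Vale.Agent.H29.CR

variable {V : Type*} [Fintype V] [DecidableEq V] {G : SimpleGraph V} [DecidableRel G.Adj]
  {m : ℕ}

theorem Std.Wq_clique (h : Std G m) (hd : DiamondFree G) {v y : V} (hvy : G.Adj v y) {x : V}
    (hx : x ∈ Kq G v y) {w w' : V} (hw : w ∈ Wq G v y x) (hw' : w' ∈ Wq G v y x)
    (hne : w ≠ w') : G.Adj w w' := by
  obtain ⟨hxw, hwK⟩ := mem_Wq.1 hw
  obtain ⟨hxw', hwK'⟩ := mem_Wq.1 hw'
  have hvK : v ∈ Kq G v y := mem_Kq.2 (Or.inl rfl)
  have hyK : y ∈ Kq G v y := mem_Kq.2 (Or.inr (Or.inl rfl))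
  obtain ⟨k, hk, hkx⟩ : ∃ k ∈ Kq G v y, k ≠ x := by
    by_cases hxv : x = v
    · exact ⟨y, hyK, fun hyx => hvy.ne (hxv.symm.trans hyx.symm)⟩
    · exact ⟨v, hvK, fun hvx => hxv hvx.symm⟩
  have hwk : ¬ G.Adj w k := Kq_unique hd hvy hx hwK hxw hk hkx
  have hwk' : ¬ G.Adj w' k := Kq_unique hd hvy hx hwK' hxw' hk hkx
  have hxk : G.Adj x k := Kq_clique hd hvy (Finset.mem_coe.2 hx) (Finset.mem_coe.2 hk)
    (fun hxk => hkx hxk.symm)
  have hwk1 : w ≠ k := fun hh => hwK (by rw [hh]; exact hk)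
  have hwk2 : w' ≠ k := fun hh => hwK' (by rw [hh]; exact hk)
  rcases h.claw x w w' k hxw hxw' hxk hne hwk1 hwk2 with h1 | h1 | h1
  · exact h1
  · exact absurd h1 hwk
  · exact absurd h1 hwk'

theorem Std.Wq_card (h : Std G m) (hd : DiamondFree G) {v y : V} (hvy : G.Adj v y) {x : V}
    (hx : x ∈ Kq G v y) : m ≤ (Wq G v y x).card + (Kq G v y).card := by
  have hsub : G.neighborFinset x ⊆ Wq G v y x ∪ (Kq G v y).erase x := by
    intro z hz
    have hxz : G.Adj x z := (G.mem_neighborFinset x z).1 hz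
    by_cases hzK : z ∈ Kq G v y
    · exact Finset.mem_union_right _ (Finset.mem_erase.2 ⟨fun hzx => hxz.ne hzx.symm, hzK⟩)
    · exact Finset.mem_union_left _ (mem_Wq.2 ⟨hxz, hzK⟩)
  have h1 : G.degree x ≤ (Wq G v y x).card + ((Kq G v y).erase x).card := by
    rw [← G.card_neighborFinset_eq_degree]
    exact le_trans (Finset.card_le_card hsub) (Finset.card_union_le _ _)
  have h2 : ((Kq G v y).erase x).card = (Kq G v y).card - 1 := Finset.card_erase_of_mem hx
  have h3 : 1 ≤ (Kq G v y).card := Finset.card_pos.2 ⟨x, hx⟩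
  have h4 := h.deg x
  omega

/-- The sets `Wq G v y x`, `x ∈ K`, are pairwise disjoint. -/
theorem Wq_disjoint (hd : DiamondFree G) {v y : V} (hvy : G.Adj v y) {x x' w : V}
    (hx : x ∈ Kq G v y) (hx' : x' ∈ Kq G v y) (hne : x ≠ x') (hw : w ∈ Wq G v y x) :
    w ∉ Wq G v y x' := by
  intro hw'
  obtain ⟨hxw, hwK⟩ := mem_Wq.1 hw
  obtain ⟨hxw', -⟩ := mem_Wq.1 hw'
  exact Kq_unique hd hvy hx hwK hxw hx' (fun hh => hne hh.symm) hxw'.symm

/-- Every neighbour `w` of `x` has a neighbour `u` which is neither `x` nor adjacent to `x`. -/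
theorem Std.exists_far (h : Std G m) (hd : DiamondFree G) {x w : V} (hxw : G.Adj x w) :
    ∃ u, Far G x w u := by
  by_contra hcon
  have hall : ∀ u, G.Adj w u → u ≠ x → G.Adj x u := by
    intro u hwu hux
    by_contra hxu
    exact hcon ⟨u, hwu, hux, hxu⟩
  have hN : ∀ z ∈ G.neighborFinset w, ∀ z' ∈ G.neighborFinset w, z ≠ z' → G.Adj z z' := by
    intro z hz z' hz' hzz
    have hwz : G.Adj w z := (G.mem_neighborFinset w z).1 hz
    have hwz' : G.Adj w z' := (G.mem_neighborFinset w z').1 hz'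
    by_cases hzx : z = x
    · rw [hzx]
      exact hall z' hwz' (fun hh => hzz (hzx.trans hh.symm))
    · by_cases hzx' : z' = x
      · rw [hzx']
        exact (hall z hwz hzx).symm
      · exact hd w z x z' hwz hxw.symm hwz' (hall z hwz hzx).symm (hall z' hwz' hzx') hzz
  have hC : G.IsClique ((insert w (G.neighborFinset w) : Finset V) : Set V) := by
    intro z hz z' hz' hzz
    rw [Finset.mem_coe, Finset.mem_insert] at hz hz'
    rcases hz with hz | hz
    · rcases hz' with hz' | hz'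
      · exact absurd (hz.trans hz'.symm) hzz
      · rw [hz]
        exact (G.mem_neighborFinset w z').1 hz'
    · rcases hz' with hz' | hz'
      · rw [hz']
        exact ((G.mem_neighborFinset w z).1 hz).symm
      · exact hN z hz z' hz' hzz
  have hcard : (insert w (G.neighborFinset w)).card = G.degree w + 1 := by
    rw [Finset.card_insert_of_notMem (fun hh => G.irrefl ((G.mem_neighborFinset w w).1 hh)),
      G.card_neighborFinset_eq_degree]
  have h1 := h.deg w
  have h2 := h.hm
  exact h.nocyc (hasCycle_of_clique G _ hC m (by omega) (by omega))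

end Vale.Agent.H13.CF
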