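import Vale.Agent.H29.CR.Cycles

/-!
# Cycle-complete Ramsey numbers on claw-free graphs: definitions

`ClawFree G`: no vertex has three pairwise non-adjacent neighbours.
`DiamondFree G`: inside every neighbourhood adjacency is transitive.
`Std G m`: the standing assumptions of the minimum-degree case (claw-free, no cycle of length
`m`, `6 ≤ m`, every degree at least `m - 1`).
`Kq G v y`: the closed common neighbourhood of the edge `v y`.
`Wq G v y x`: the neighbours of `x` outside `Kq G v y`.
`Far G x w u`: `u` is a neighbour of `w` which is neither `x` nor a neighbour of `x`.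
-/

namespace Vale.Agent.H13.CF

open SimpleGraph Vale.Agent.H29.CR

variable {V : Type*}

/-- No vertex has three pairwise non-adjacent neighbours. -/
def ClawFree (G : SimpleGraph V) : Prop :=
  ∀ v a b c : V, G.Adj v a → G.Adj v b → G.Adj v c → a ≠ b → a ≠ c → b ≠ c →
    G.Adj a b ∨ G.Adj a c ∨ G.Adj b c

/-- Inside every neighbourhood adjacency is transitive. -/
def DiamondFree (G : SimpleGraph V) : Prop :=
  ∀ v a b c : V, G.Adj v a → G.Adj v b → G.Adj v c → G.Adj a b → G.Adj b c → a ≠ c → G.Adj a c

/-- Standing assumptions of the minimum-degree case. -/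
structure Std [Fintype V] (G : SimpleGraph V) [DecidableRel G.Adj] (m : ℕ) : Prop where
  claw : ClawFree G
  nocyc : ¬ HasCycle G m
  hm : 6 ≤ m
  deg : ∀ v, m ≤ G.degree v + 1

/-- The closed common neighbourhood of the edge `v y`. -/
def Kq [Fintype V] [DecidableEq V] (G : SimpleGraph V) [DecidableRel G.Adj] (v y : V) :
    Finset V :=
  insert v (insert y (G.neighborFinset v ∩ G.neighborFinset y))

/-- The neighbours of `x` outside `Kq G v y`. -/
def Wq [Fintype V] [DecidableEq V] (G : SimpleGraph V) [DecidableRel G.Adj] (v y x : V) :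
    Finset V :=
  G.neighborFinset x \ Kq G v y

/-- `u` is a neighbour of `w` which is neither `x` nor a neighbour of `x`. -/
def Far (G : SimpleGraph V) (x w u : V) : Prop :=
  G.Adj w u ∧ u ≠ x ∧ ¬ G.Adj x u

end Vale.Agent.H13.CF
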