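import Vale.Agent.H13.CF.Path

/-!
# The minimum-degree case: the graph is diamond-free

Proof sketch for `Std.dia`. Fix `v` and `a, b, c` as in `DiamondFree`. Apply `path_or_trans` to
`S = G.neighborFinset v`; its hypothesis is `h.claw v`.
* If `l` is a duplicate-free chain with `l.toFinset = S`, then
  `l.length = S.card = G.degree v ≥ m - 1`. Put `l' = l.take (m - 1)`: a duplicate-free chain of
  length `m - 1 ≥ 5` whose elements are neighbours of `v`. The list `v :: l'` satisfies the
  hypotheses of `hasCycle_of_list` (its head `v` is adjacent to the head and to the last element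
  of `l'`), so `HasCycle G m`, against `h.nocyc`.
* Otherwise adjacency is transitive on `S`, which is the claim.
-/

namespace Vale.Agent.H13.CF

open SimpleGraph Vale.Agent.H29.CR

variable {V : Type*}

/-- In the minimum-degree case the graph is diamond-free. -/
theorem Std.dia [Fintype V] [DecidableEq V] {G : SimpleGraph V} [DecidableRel G.Adj] {m : ℕ}
    (h : Std G m) : DiamondFree G := by
  intro v a b c hva hvb hvc hab hbc hac
  have h3 : ∀ a ∈ G.neighborFinset v, ∀ b ∈ G.neighborFinset v, ∀ c ∈ G.neighborFinset v,
      a ≠ b → a ≠ c → b ≠ c → G.Adj a b ∨ G.Adj a c ∨ G.Adj b c := by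
    intro a ha b hb c hc hab hac hbc
    rw [SimpleGraph.mem_neighborFinset] at ha hb hc
    exact h.claw v a b c ha hb hc hab hac hbc
  rcases path_or_trans G (G.neighborFinset v) h3 with ⟨l, hnd, hch, hl⟩ | htr
  · exfalso
    apply h.nocyc
    have hm := h.hm
    have hdeg := h.deg v
    have hlen : l.length = G.degree v := by
      rw [← SimpleGraph.card_neighborFinset_eq_degree, ← hl, List.toFinset_card_of_nodup hnd]
    have hlen' : (l.take (m - 1)).length = m - 1 := by
      rw [List.length_take]
      omega
    have hnd' : (l.take (m - 1)).Nodup := hnd.sublist (List.take_sublist _ _)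
    have hch' : (l.take (m - 1)).IsChain G.Adj := hch.take _
    have hmem' : ∀ x ∈ l.take (m - 1), G.Adj v x := by
      intro x hx
      have h1 : x ∈ l.toFinset := List.mem_toFinset.mpr (List.mem_of_mem_take hx)
      rw [hl, SimpleGraph.mem_neighborFinset] at h1
      exact h1
    have hne' : l.take (m - 1) ≠ [] := by
      intro h0
      rw [h0] at hlen'
      simp only [List.length_nil] at hlen'
      omega
    have hv : v ∉ l.take (m - 1) := fun hv => G.irrefl (hmem' v hv)
    have key := hasCycle_of_list G (v :: l.take (m - 1)) (List.cons_ne_nil _ _)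
      (List.nodup_cons.mpr ⟨hv, hnd'⟩)
      (List.IsChain.cons_of_ne_nil hne' hch' (hmem' _ (List.head_mem hne')))
      (by
        rw [List.getLast_cons hne', List.head_cons]
        exact (hmem' _ (List.getLast_mem hne')).symm)
      (by
        rw [List.length_cons, hlen']
        omega)
    rw [List.length_cons, hlen'] at key
    have hm1 : m - 1 + 1 = m := by omega
    rw [hm1] at key
    exact key
  · exact htr a ((SimpleGraph.mem_neighborFinset G v a).mpr hva) b
      ((SimpleGraph.mem_neighborFinset G v b).mpr hvb) c
      ((SimpleGraph.mem_neighborFinset G v c).mpr hvc) hab hbc hac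

end Vale.Agent.H13.CF
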