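import Vale.Agent.H13.CF.Defs

/-!
# Expanding a short cycle at a vertex whose two neighbours on the cycle are not adjacent

Proof sketch for `hasCycle_expand`. Write `p = P.head hP`, `q = P.getLast hP`. As `P` is a chain
and `p`, `q` are different and not adjacent, `P.length ≥ 3`. Let
`S' = (G.neighborFinset v).filter (fun z => z = q ∨ G.Adj z q)`, `S = insert v S'` and
`T = (G.neighborFinset v).filter (fun z => z = p ∨ G.Adj z p)`.
* `S` and `T` are cliques (`hdia` at `v`, through `q` resp. `p`); `S'` and `T` are disjoint (a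
  common element `z` would give `p ~ z ~ q` inside the neighbourhood of `v`, hence `p ~ q`, or
  one of `z = p ~ q`, `z = q ~ p`, `p = q`); every neighbour of `v` lies in `S'` or in `T`
  (`hclaw` at `v` for `z, p, q`). Hence `S.card + T.card = G.degree v + 1 ≥ m`; moreover
  `v, q ∈ S`, `p ∈ T`, so `2 ≤ S.card` and `1 ≤ T.card`.
* Let `t = max 1 (m + 2 - P.length - S.card)` and `s = m + 2 - P.length - t`; then
  `1 ≤ t ≤ T.card`, `2 ≤ s ≤ S.card` and `s + t + P.length = m + 2`.
* Let `M` be a duplicate-free list of `t` elements of `T` with last element `p` (`[p]` if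
  `t = 1`; otherwise pick `z ∈ T`, `z ≠ p` and use `exists_clique_list` from `z` to `p`), and
  `L = M ++ P.tail.dropLast`. The elements of `P.tail.dropLast` are the elements of `P` other
  than `p` and `q`; they are not neighbours of `v` (`hmid`) and different from `v` (`hv`), so
  they lie neither in `S` nor in `T`. So `L` is a duplicate-free chain outside `S` of length
  `t + P.length - 2`, its head lies in `T` (a neighbour of `v`) and its last element is the
  element of `P` before `q` (a neighbour of `q`).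
* `hasCycle_necklace` with the clique `S`, `a = v`, `a' = q`, the list `L` and `s` gives a cycle
  of length `s + L.length = m`.
-/

namespace Vale.Agent.H13.CF

open SimpleGraph Vale.Agent.H29.CR

variable {V : Type*}

/-- A list whose head and last element are different is `head :: (middle ++ [last])`. -/
theorem expand_decomp (P : List V) (hP : P ≠ []) (hne' : P.head hP ≠ P.getLast hP) :
    ∃ Q : List V, P = P.head hP :: (Q ++ [P.getLast hP]) := by
  cases P with
  | nil => exact absurd rfl hP
  | cons p P' =>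
    have hP' : P' ≠ [] := by
      rintro rfl
      exact hne' rfl
    refine ⟨P'.dropLast, ?_⟩
    rw [List.head_cons, List.getLast_cons hP', List.dropLast_append_getLast hP']

/-- The expansion lemma for the list `p :: (Q ++ [q])`. -/
theorem expand_aux [Fintype V] [DecidableEq V] (G : SimpleGraph V) [DecidableRel G.Adj]
    (m : ℕ) (hclaw : ClawFree G) (hdia : DiamondFree G) (v : V) (hdeg : m ≤ G.degree v + 1)
    (p q : V) (Q : List V) (hQ : Q ≠ [])
    (hnd : (p :: (Q ++ [q])).Nodup) (hch : (p :: (Q ++ [q])).IsChain G.Adj)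
    (hvq : v ≠ q) (hvQ : v ∉ Q)
    (h1 : G.Adj v p) (h2 : G.Adj q v) (hne : ¬ G.Adj p q) (hne' : p ≠ q)
    (hmid : ∀ x ∈ Q, ¬ G.Adj v x) (hlen : Q.length + 3 ≤ m) : HasCycle G m := by
  have hnd' := hnd
  rw [List.nodup_cons] at hnd'
  obtain ⟨-, hQq⟩ := hnd'
  rw [List.nodup_append] at hQq
  obtain ⟨hQnd, -, -⟩ := hQq
  rw [List.isChain_cons] at hch
  obtain ⟨hpQh, hch2⟩ := hch
  rw [List.isChain_append] at hch2
  obtain ⟨hQch, -, hQq2⟩ := hch2
  have hpq1 : G.Adj p (Q.head hQ) := by
    apply hpQh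
    rw [List.head?_append_of_ne_nil _ hQ, List.head?_eq_some_head hQ]
    exact Option.mem_some_iff.mpr rfl
  have hq1 : G.Adj (Q.getLast hQ) q := by
    apply hQq2
    · rw [List.getLast?_eq_some_getLast hQ]
      exact Option.mem_some_iff.mpr rfl
    · exact Option.mem_some_iff.mpr rfl
  have hvq' : G.Adj v q := h2.symm
  obtain ⟨S', hS'⟩ : ∃ S' : Finset V,
      S' = (G.neighborFinset v).filter (fun z => z = q ∨ G.Adj z q) := ⟨_, rfl⟩
  obtain ⟨T, hT⟩ : ∃ T : Finset V,
      T = (G.neighborFinset v).filter (fun z => z = p ∨ G.Adj z p) := ⟨_, rfl⟩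
  have memS' : ∀ z, z ∈ S' ↔ G.Adj v z ∧ (z = q ∨ G.Adj z q) := by
    intro z
    rw [hS', Finset.mem_filter, SimpleGraph.mem_neighborFinset]
  have memT : ∀ z, z ∈ T ↔ G.Adj v z ∧ (z = p ∨ G.Adj z p) := by
    intro z
    rw [hT, Finset.mem_filter, SimpleGraph.mem_neighborFinset]
  have S'clique : ∀ z ∈ S', ∀ z' ∈ S', z ≠ z' → G.Adj z z' := by
    intro z hz z' hz' hzz
    obtain ⟨hvz, hz1⟩ := (memS' z).1 hz
    obtain ⟨hvz', hz1'⟩ := (memS' z').1 hz'
    rcases hz1 with hz1 | hz1
    · rcases hz1' with hz1' | hz1'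
      · exact absurd (hz1.trans hz1'.symm) hzz
      · rw [hz1]
        exact hz1'.symm
    · rcases hz1' with hz1' | hz1'
      · rw [hz1']
        exact hz1
      · exact hdia v z q z' hvz hvq' hvz' hz1 hz1'.symm hzz
  have hSc : G.IsClique ((insert v S' : Finset V) : Set V) := by
    intro z hz z' hz' hzz
    rw [Finset.mem_coe, Finset.mem_insert] at hz hz'
    rcases hz with hz | hz
    · rcases hz' with hz' | hz'
      · exact absurd (hz.trans hz'.symm) hzz
      · rw [hz]
        exact ((memS' z').1 hz').1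
    · rcases hz' with hz' | hz'
      · rw [hz']
        exact ((memS' z).1 hz).1.symm
      · exact S'clique z hz z' hz' hzz
  have hTc : G.IsClique (T : Set V) := by
    intro z hz z' hz' hzz
    obtain ⟨hvz, hz1⟩ := (memT z).1 (Finset.mem_coe.1 hz)
    obtain ⟨hvz', hz1'⟩ := (memT z').1 (Finset.mem_coe.1 hz')
    rcases hz1 with hz1 | hz1
    · rcases hz1' with hz1' | hz1'
      · exact absurd (hz1.trans hz1'.symm) hzz
      · rw [hz1]
        exact hz1'.symm
    · rcases hz1' with hz1' | hz1'
      · rw [hz1']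
        exact hz1
      · exact hdia v z p z' hvz h1 hvz' hz1 hz1'.symm hzz
  have hdisj : Disjoint S' T := by
    rw [Finset.disjoint_left]
    intro z hz hz'
    obtain ⟨hvz, hz1⟩ := (memS' z).1 hz
    obtain ⟨-, hz2⟩ := (memT z).1 hz'
    rcases hz1 with hz1 | hz1
    · rcases hz2 with hz2 | hz2
      · exact hne' (hz2.symm.trans hz1)
      · rw [hz1] at hz2
        exact hne hz2.symm
    · rcases hz2 with hz2 | hz2
      · rw [hz2] at hz1
        exact hne hz1
      · exact hne (hdia v p z q h1 hvz hvq' hz2.symm hz1 hne')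
  have hunion : G.neighborFinset v ⊆ S' ∪ T := by
    intro z hz
    have hvz : G.Adj v z := (G.mem_neighborFinset v z).1 hz
    rw [Finset.mem_union, memS', memT]
    by_cases hzp : z = p
    · exact Or.inr ⟨hvz, Or.inl hzp⟩
    · by_cases hzq : z = q
      · exact Or.inl ⟨hvz, Or.inl hzq⟩
      · rcases hclaw v z p q hvz h1 hvq' hzp hzq hne' with h | h | h
        · exact Or.inr ⟨hvz, Or.inr h⟩
        · exact Or.inl ⟨hvz, Or.inr h⟩
        · exact absurd h hne
  have hcardST : G.degree v ≤ S'.card + T.card := by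
    rw [← G.card_neighborFinset_eq_degree, ← Finset.card_union_of_disjoint hdisj]
    exact Finset.card_le_card hunion
  have hvS' : v ∉ S' := fun h => G.irrefl ((memS' v).1 h).1
  have hScard : (insert v S').card = S'.card + 1 := Finset.card_insert_of_notMem hvS'
  have hqS' : q ∈ S' := (memS' q).2 ⟨hvq', Or.inl rfl⟩
  have hpT : p ∈ T := (memT p).2 ⟨h1, Or.inl rfl⟩
  have hS'1 : 1 ≤ S'.card := Finset.card_pos.2 ⟨q, hqS'⟩
  have hT1 : 1 ≤ T.card := Finset.card_pos.2 ⟨p, hpT⟩
  obtain ⟨t, ht1, htT, hs2, hsS⟩ : ∃ t, 1 ≤ t ∧ t ≤ T.card ∧ 2 + t + Q.length ≤ m ∧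
      m ≤ (insert v S').card + t + Q.length := by
    by_cases hc : m ≤ (insert v S').card + Q.length + 1
    · exact ⟨1, le_refl 1, hT1, by omega, by omega⟩
    · exact ⟨m - Q.length - (insert v S').card, by omega, by omega, by omega, by omega⟩
  obtain ⟨M, hM, hMnd, hMlen, hMT, hMlast, hMch⟩ : ∃ M : List V, ∃ hM : M ≠ [],
      M.Nodup ∧ M.length = t ∧ (∀ x ∈ M, x ∈ T) ∧ M.getLast hM = p ∧ M.IsChain G.Adj := by
    rcases Nat.lt_or_ge t 2 with ht | ht
    · have ht' : t = 1 := by omega
      refine ⟨[p], List.cons_ne_nil _ _, List.nodup_singleton p, ?_, ?_, rfl,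
        List.isChain_singleton p⟩
      · rw [ht', List.length_singleton]
      · intro x hx
        rw [List.mem_singleton.1 hx]
        exact hpT
    · obtain ⟨z, hz, hzp⟩ : ∃ z ∈ T, z ≠ p := by
        obtain ⟨a, ha, b, hb, hab⟩ := Finset.one_lt_card.1 (by omega : 1 < T.card)
        by_cases hap : a = p
        · exact ⟨b, hb, fun h => hab (hap.trans h.symm)⟩
        · exact ⟨a, ha, hap⟩
      obtain ⟨M, hM, hMnd, hMlen, hMT, -, hMlast, hMch⟩ :=
        exists_clique_list G T hTc hz hpT hzp t ht htT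
      exact ⟨M, hM, hMnd, hMlen, hMT, hMlast, hMch⟩
  have hMv : ∀ x ∈ M, G.Adj v x := fun x hx => ((memT x).1 (hMT x hx)).1
  have hLne : M ++ Q ≠ [] := List.append_ne_nil_of_left_ne_nil hM Q
  have hLnd : (M ++ Q).Nodup := by
    rw [List.nodup_append]
    refine ⟨hMnd, hQnd, ?_⟩
    intro x hx y hy hxy
    rw [hxy] at hx
    exact hmid y hy (hMv y hx)
  have hLS : ∀ x ∈ M ++ Q, x ∉ insert v S' := by
    intro x hx hxS
    rw [Finset.mem_insert] at hxS
    rcases List.mem_append.1 hx with hx | hx
    · rcases hxS with hxS | hxS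
      · have hvx := hMv x hx
        rw [hxS] at hvx
        exact G.irrefl hvx
      · exact Finset.disjoint_left.1 hdisj hxS (hMT x hx)
    · rcases hxS with hxS | hxS
      · rw [hxS] at hx
        exact hvQ hx
      · exact hmid x hx ((memS' x).1 hxS).1
  have hLch : (M ++ Q).IsChain G.Adj := by
    apply List.IsChain.append hMch hQch
    intro x hx y hy
    rw [List.getLast?_eq_some_getLast hM] at hx
    rw [List.head?_eq_some_head hQ] at hy
    have ex : x = p := by
      have hx' := Option.mem_some_iff.mp hx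
      rw [← hx', hMlast]
    have ey : y = Q.head hQ := (Option.mem_some_iff.mp hy).symm
    rw [ex, ey]
    exact hpq1
  have hLhead : G.Adj v ((M ++ Q).head hLne) := by
    rw [List.head_append_of_ne_nil hM]
    exact hMv _ (List.head_mem hM)
  have hLlast : G.Adj ((M ++ Q).getLast hLne) q := by
    rw [List.getLast_append_of_ne_nil hLne hQ]
    exact hq1
  have hc := hasCycle_necklace G (insert v S') hSc (Finset.mem_insert_self v S')
    (Finset.mem_insert_of_mem hqS') hvq (M ++ Q) hLne hLnd hLS hLch hLhead hLlast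
    (m - t - Q.length) (by omega) (by omega)
  have hfin : m - t - Q.length + (M ++ Q).length = m := by
    rw [List.length_append, hMlen]
    omega
  rw [hfin] at hc
  exact hc

/-- Expansion lemma. Let `v :: P` be a cycle with at most `m` vertices such that the two
neighbours of `v` on it are different and not adjacent and `v` is adjacent to no other vertex
of it. If `G` is claw-free and diamond-free and `v` has degree at least `m - 1`, then `G` has a
cycle of length `m`. -/
theorem hasCycle_expand [Fintype V] [DecidableEq V] (G : SimpleGraph V) [DecidableRel G.Adj]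
    (m : ℕ) (hclaw : ClawFree G) (hdia : DiamondFree G) (v : V) (hdeg : m ≤ G.degree v + 1)
    (P : List V) (hP : P ≠ []) (hnd : P.Nodup) (hch : P.IsChain G.Adj) (hv : v ∉ P)
    (h1 : G.Adj v (P.head hP)) (h2 : G.Adj (P.getLast hP) v)
    (hne : ¬ G.Adj (P.head hP) (P.getLast hP)) (hne' : P.head hP ≠ P.getLast hP)
    (hmid : ∀ x ∈ P, x ≠ P.head hP → x ≠ P.getLast hP → ¬ G.Adj v x)
    (hlen : P.length + 1 ≤ m) : HasCycle G m := by
  obtain ⟨Q, hPQ⟩ := expand_decomp P hP hne'
  obtain ⟨p, hp⟩ : ∃ p, p = P.head hP := ⟨_, rfl⟩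
  obtain ⟨q, hq⟩ : ∃ q, q = P.getLast hP := ⟨_, rfl⟩
  rw [← hp, ← hq] at hPQ
  rw [← hp] at h1 hmid
  rw [← hq] at h2 hmid
  rw [← hp, ← hq] at hne hne'
  have hnd2 : (p :: (Q ++ [q])).Nodup := by
    rw [← hPQ]
    exact hnd
  have hch2 : (p :: (Q ++ [q])).IsChain G.Adj := by
    rw [← hPQ]
    exact hch
  have hQ : Q ≠ [] := by
    rintro rfl
    rw [List.nil_append, List.isChain_pair] at hch2
    exact hne hch2
  have hmemP : ∀ x, x ∈ P ↔ x = p ∨ x ∈ Q ∨ x = q := by
    intro x
    rw [hPQ, List.mem_cons, List.mem_append, List.mem_singleton]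
  have hvq : v ≠ q := fun h => hv ((hmemP v).2 (Or.inr (Or.inr h)))
  have hvQ : v ∉ Q := fun h => hv ((hmemP v).2 (Or.inr (Or.inl h)))
  have hnd3 := hnd2
  rw [List.nodup_cons] at hnd3
  obtain ⟨hpQq, hQq⟩ := hnd3
  rw [List.nodup_append] at hQq
  obtain ⟨-, -, hQq'⟩ := hQq
  have hmid' : ∀ x ∈ Q, ¬ G.Adj v x := by
    intro x hx
    refine hmid x ((hmemP x).2 (Or.inr (Or.inl hx))) ?_ ?_
    · intro hxp
      rw [hxp] at hx
      exact hpQq (List.mem_append_left _ hx)
    · intro hxq
      exact hQq' x hx q (List.mem_singleton.2 rfl) hxq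
  have hlen' : Q.length + 3 ≤ m := by
    rw [hPQ, List.length_cons, List.length_append, List.length_singleton] at hlen
    omega
  exact expand_aux G m hclaw hdia v hdeg p q Q hQ hnd2 hch2 hvq hvQ h1 h2 hne hne' hmid' hlen'

end Vale.Agent.H13.CF
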