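import Vale.Agent.H13.CF.Expand

/-!
# The expansion lemma for cycles with four, five and six vertices

Proof sketch. The three statements are the cases `P = [a, b, c]`, `P = [a, b, c, d]` and
`P = [a, b, c, d, e]` of `hasCycle_expand` (head `a`, last element `c`, `d`, `e`). All
hypotheses of `hasCycle_expand` are read off from the hypotheses here: `P.Nodup` and `v ∉ P`
from `hne`, the chain from the listed adjacencies, `hmid` from the listed non-adjacencies, and
head and last are different by `hne`.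
-/

namespace Vale.Agent.H13.CF

open SimpleGraph Vale.Agent.H29.CR

variable {V : Type*}

/-- Expansion of a 4-cycle `v a b c`. -/
theorem hasCycle_expand4 [Fintype V] [DecidableEq V] (G : SimpleGraph V) [DecidableRel G.Adj]
    (m : ℕ) (hclaw : ClawFree G) (hdia : DiamondFree G) (hm : 4 ≤ m) (v a b c : V)
    (hdeg : m ≤ G.degree v + 1)
    (hva : G.Adj v a) (hab : G.Adj a b) (hbc : G.Adj b c) (hcv : G.Adj c v)
    (hac : ¬ G.Adj a c) (hvb : ¬ G.Adj v b)
    (hne : [v, a, b, c].Nodup) : HasCycle G m := by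
  simp only [List.nodup_cons, List.mem_cons, List.not_mem_nil, or_false, not_or,
    List.nodup_nil, and_true, not_false_eq_true] at hne
  obtain ⟨⟨hva', hvb', hvc'⟩, ⟨hab', hac'⟩, hbc'⟩ := hne
  refine hasCycle_expand G m hclaw hdia v hdeg [a, b, c] (by simp) ?_ ?_ ?_ hva hcv hac hac' ?_ ?_
  · simp only [List.nodup_cons, List.mem_cons, List.not_mem_nil, or_false, not_or,
      List.nodup_nil, and_true, not_false_eq_true]
    exact ⟨⟨hab', hac'⟩, hbc'⟩
  · simp only [List.isChain_cons_cons, List.isChain_singleton, and_true]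
    exact ⟨hab, hbc⟩
  · simp only [List.mem_cons, List.not_mem_nil, or_false, not_or]
    exact ⟨hva', hvb', hvc'⟩
  · intro x hx hxa hxc
    simp only [List.mem_cons, List.not_mem_nil, or_false] at hx
    rcases hx with rfl | rfl | rfl
    · exact absurd rfl hxa
    · exact hvb
    · exact absurd rfl hxc
  · simpa using hm

/-- Expansion of a 5-cycle `v a b c d`. -/
theorem hasCycle_expand5 [Fintype V] [DecidableEq V] (G : SimpleGraph V) [DecidableRel G.Adj]
    (m : ℕ) (hclaw : ClawFree G) (hdia : DiamondFree G) (hm : 5 ≤ m) (v a b c d : V)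
    (hdeg : m ≤ G.degree v + 1)
    (hva : G.Adj v a) (hab : G.Adj a b) (hbc : G.Adj b c) (hcd : G.Adj c d) (hdv : G.Adj d v)
    (had : ¬ G.Adj a d) (hvb : ¬ G.Adj v b) (hvc : ¬ G.Adj v c)
    (hne : [v, a, b, c, d].Nodup) : HasCycle G m := by
  simp only [List.nodup_cons, List.mem_cons, List.not_mem_nil, or_false, not_or,
    List.nodup_nil, and_true, not_false_eq_true] at hne
  obtain ⟨⟨hva', hvb', hvc', hvd'⟩, ⟨hab', hac', had'⟩, ⟨hbc', hbd'⟩, hcd'⟩ := hne
  refine hasCycle_expand G m hclaw hdia v hdeg [a, b, c, d] (by simp) ?_ ?_ ?_ hva hdv had had'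
    ?_ ?_
  · simp only [List.nodup_cons, List.mem_cons, List.not_mem_nil, or_false, not_or,
      List.nodup_nil, and_true, not_false_eq_true]
    exact ⟨⟨hab', hac', had'⟩, ⟨hbc', hbd'⟩, hcd'⟩
  · simp only [List.isChain_cons_cons, List.isChain_singleton, and_true]
    exact ⟨hab, hbc, hcd⟩
  · simp only [List.mem_cons, List.not_mem_nil, or_false, not_or]
    exact ⟨hva', hvb', hvc', hvd'⟩
  · intro x hx hxa hxd
    simp only [List.mem_cons, List.not_mem_nil, or_false] at hx
    rcases hx with rfl | rfl | rfl | rfl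
    · exact absurd rfl hxa
    · exact hvb
    · exact hvc
    · exact absurd rfl hxd
  · simpa using hm

/-- Expansion of a 6-cycle `v a b c d e`. -/
theorem hasCycle_expand6 [Fintype V] [DecidableEq V] (G : SimpleGraph V) [DecidableRel G.Adj]
    (m : ℕ) (hclaw : ClawFree G) (hdia : DiamondFree G) (hm : 6 ≤ m) (v a b c d e : V)
    (hdeg : m ≤ G.degree v + 1)
    (hva : G.Adj v a) (hab : G.Adj a b) (hbc : G.Adj b c) (hcd : G.Adj c d) (hde : G.Adj d e)
    (hev : G.Adj e v)
    (hae : ¬ G.Adj a e) (hvb : ¬ G.Adj v b) (hvc : ¬ G.Adj v c) (hvd : ¬ G.Adj v d)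
    (hne : [v, a, b, c, d, e].Nodup) : HasCycle G m := by
  simp only [List.nodup_cons, List.mem_cons, List.not_mem_nil, or_false, not_or,
    List.nodup_nil, and_true, not_false_eq_true] at hne
  obtain ⟨⟨hva', hvb', hvc', hvd', hve'⟩, ⟨hab', hac', had', hae'⟩, ⟨hbc', hbd', hbe'⟩,
    ⟨hcd', hce'⟩, hde'⟩ := hne
  refine hasCycle_expand G m hclaw hdia v hdeg [a, b, c, d, e] (by simp) ?_ ?_ ?_ hva hev hae
    hae' ?_ ?_
  · simp only [List.nodup_cons, List.mem_cons, List.not_mem_nil, or_false, not_or,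
      List.nodup_nil, and_true, not_false_eq_true]
    exact ⟨⟨hab', hac', had', hae'⟩, ⟨hbc', hbd', hbe'⟩, ⟨hcd', hce'⟩, hde'⟩
  · simp only [List.isChain_cons_cons, List.isChain_singleton, and_true]
    exact ⟨hab, hbc, hcd, hde⟩
  · simp only [List.mem_cons, List.not_mem_nil, or_false, not_or]
    exact ⟨hva', hvb', hvc', hvd', hve'⟩
  · intro x hx hxa hxe
    simp only [List.mem_cons, List.not_mem_nil, or_false] at hx
    rcases hx with rfl | rfl | rfl | rfl | rfl
    · exact absurd rfl hxa
    · exact hvb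
    · exact hvc
    · exact hvd
    · exact absurd rfl hxe
  · simpa using hm

end Vale.Agent.H13.CF
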