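import Vale.Agent.H13.CF.Viol

/-!
# The minimum-degree case: an independent set with at least `m` vertices

Proof sketch for `Std.exists_indep`. Pick a vertex `v`; as `G.degree v ≥ m - 1 ≥ 5` it has a
neighbour `y`. Let `K = Kq G v y`, `k = K.card`; `2 ≤ k` and `k + 1 ≤ m`.
Let `Sg = K.sigma (fun x => Wq G v y x)` (pairs `⟨x, w⟩` with `x ∈ K`, `w ∈ Wq G v y x`); by
`Finset.card_sigma` and `Std.Wq_card`, `Sg.card ≥ k * (m - k)`.
Choose `g : V → V → V` with `Far G x w (g x w)` whenever `G.Adj x w` (`Std.exists_far`).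
* `fun p => g p.1 p.2` is injective on `Sg`: for two different pairs `⟨x, w⟩`, `⟨x', w'⟩` of
  `Sg` we have `w ≠ w'` (if `w = w'` then `x ≠ x'`, against `Wq_disjoint`), so `Std.far_ne`.
* `I = insert v (Sg.image fun p => g p.1 p.2)` is independent: two different elements of the
  image come from pairs with `w ≠ w'`, so `Std.far_not_adj_far`; an element of the image is not
  adjacent to `v ∈ K` (`Std.far_not_adj`) and is not `v` (`Std.far_not_mem`).
* `I.card = Sg.card + 1 ≥ k * (m - k) + 1 ≥ m` because `(k - 1) * (m - 1 - k) ≥ 0`.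
-/

namespace Vale.Agent.H13.CF

open SimpleGraph Vale.Agent.H29.CR

variable {V : Type*} [Fintype V] [DecidableEq V] {G : SimpleGraph V} [DecidableRel G.Adj]
  {m : ℕ}

/-- Two different pairs of the sigma set have different second components. -/
theorem indep_snd_ne (hd : DiamondFree G) {v y : V} (hvy : G.Adj v y)
    {p p' : (_ : V) × V} (hp : p ∈ (Kq G v y).sigma (fun x => Wq G v y x))
    (hp' : p' ∈ (Kq G v y).sigma (fun x => Wq G v y x)) (hne : p ≠ p') : p.2 ≠ p'.2 := by
  obtain ⟨x, w⟩ := p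
  obtain ⟨x', w'⟩ := p'
  rw [Finset.mem_sigma] at hp hp'
  intro hw
  have hw2 : w = w' := hw
  subst hw2
  have hxx : x ≠ x' := by
    intro hxx
    subst hxx
    exact hne rfl
  exact Wq_disjoint hd hvy hp.1 hp'.1 hxx hp.2 hp'.2

theorem indep_arith (k m c : ℕ) (hk : 2 ≤ k) (hkm : k + 1 ≤ m) (hc : k * (m - k) ≤ c) :
    m ≤ c + 1 := by
  obtain ⟨j, rfl⟩ := Nat.exists_eq_add_of_le hkm
  have h1 : k + 1 + j - k = 1 + j := by omega
  rw [h1] at hc
  have h2 : j ≤ k * j := Nat.le_mul_of_pos_left j (by omega)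
  have h3 : k * (1 + j) = k + k * j := by ring
  omega

/-- In the minimum-degree case a diamond-free graph has an independent set with at least `m`
vertices. -/
theorem Std.exists_indep [Nonempty V] (h : Std G m) (hd : DiamondFree G) :
    ∃ s : Finset V, G.IsIndepSet (s : Set V) ∧ m ≤ s.card := by
  classical
  obtain ⟨v⟩ := ‹Nonempty V›
  have hdeg : 0 < G.degree v := by
    have h1 := h.deg v
    have h2 := h.hm
    omega
  rw [← G.card_neighborFinset_eq_degree, Finset.card_pos] at hdeg
  obtain ⟨y, hy⟩ := hdeg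
  have hvy : G.Adj v y := (G.mem_neighborFinset v y).mp hy
  have hK2 : 2 ≤ (Kq G v y).card := Kq_card_ge hvy
  have hKm : (Kq G v y).card + 1 ≤ m := h.Kq_card_le hd hvy
  have hvK : v ∈ Kq G v y := mem_Kq.mpr (Or.inl rfl)
  have hex : ∀ x w : V, ∃ u, G.Adj x w → Far G x w u := by
    intro x w
    by_cases hxw : G.Adj x w
    · obtain ⟨u, hu⟩ := h.exists_far hd hxw
      exact ⟨u, fun _ => hu⟩
    · exact ⟨x, fun h' => absurd h' hxw⟩
  choose g hg using hex
  -- facts about the members of the sigma set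
  have hmem : ∀ p ∈ (Kq G v y).sigma (fun x => Wq G v y x),
      p.1 ∈ Kq G v y ∧ p.2 ∈ Wq G v y p.1 ∧ Far G p.1 p.2 (g p.1 p.2) := by
    intro p hp
    rw [Finset.mem_sigma] at hp
    exact ⟨hp.1, hp.2, hg p.1 p.2 (mem_Wq.mp hp.2).1⟩
  have hinj : Set.InjOn (fun p : (_ : V) × V => g p.1 p.2)
      ((Kq G v y).sigma (fun x => Wq G v y x) : Set ((_ : V) × V)) := by
    intro p hp p' hp' hpp
    by_contra hne
    have hp1 := hmem p (Finset.mem_coe.mp hp)
    have hp1' := hmem p' (Finset.mem_coe.mp hp')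
    exact h.far_ne hd hvy hp1.1 hp1.2.1 hp1.2.2 hp1'.1 hp1'.2.1 hp1'.2.2
      (indep_snd_ne hd hvy (Finset.mem_coe.mp hp) (Finset.mem_coe.mp hp') hne) hpp
  have hvnot : v ∉ ((Kq G v y).sigma (fun x => Wq G v y x)).image
      (fun p : (_ : V) × V => g p.1 p.2) := by
    intro hv
    rw [Finset.mem_image] at hv
    obtain ⟨p, hp, hpv⟩ := hv
    have hp1 := hmem p hp
    have := h.far_not_mem hd hvy hp1.1 hp1.2.1 hp1.2.2
    rw [hpv] at this
    exact this hvK
  refine ⟨insert v (((Kq G v y).sigma (fun x => Wq G v y x)).image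
      (fun p : (_ : V) × V => g p.1 p.2)), ?_, ?_⟩
  · -- independence
    intro a ha b hb hab
    rw [Finset.mem_coe, Finset.mem_insert, Finset.mem_image] at ha hb
    rcases ha with rfl | ⟨p, hp, rfl⟩
    · rcases hb with rfl | ⟨p', hp', rfl⟩
      · exact absurd rfl hab
      · have hp1 := hmem p' hp'
        intro hadj
        exact h.far_not_adj hd hvy hp1.1 hp1.2.1 hp1.2.2 hvK hadj.symm
    · have hp1 := hmem p hp
      rcases hb with rfl | ⟨p', hp', rfl⟩
      · exact h.far_not_adj hd hvy hp1.1 hp1.2.1 hp1.2.2 hvK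
      · have hp1' := hmem p' hp'
        have hne : p ≠ p' := by
          intro hpp
          subst hpp
          exact hab rfl
        exact h.far_not_adj_far hd hvy hp1.1 hp1.2.1 hp1.2.2 hp1'.1 hp1'.2.1 hp1'.2.2
          (indep_snd_ne hd hvy hp hp' hne)
  · -- cardinality
    rw [Finset.card_insert_of_notMem hvnot, Finset.card_image_of_injOn hinj, Finset.card_sigma]
    apply indep_arith (Kq G v y).card m _ hK2 hKm
    calc (Kq G v y).card * (m - (Kq G v y).card)
        = ∑ _x ∈ Kq G v y, (m - (Kq G v y).card) := by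
          rw [Finset.sum_const, smul_eq_mul]
      _ ≤ ∑ x ∈ Kq G v y, (Wq G v y x).card := by
          apply Finset.sum_le_sum
          intro x hx
          have := h.Wq_card hd hvy hx
          omega

end Vale.Agent.H13.CF
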