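import Vale.Agent.H13.CF.Defs

/-!
# Induced subgraphs: claw-freeness and cycles

Proof sketches.
* `ClawFree.induce`: adjacency in `G.induce s` is adjacency in `G` (`SimpleGraph.comap_adj`),
  and different elements of the subtype have different values.
* `hasCycle_of_induce`: map the closed walk along the embedding `SimpleGraph.Embedding.induce s`
  (`SimpleGraph.Walk.map`, `SimpleGraph.Walk.map_isCycle_iff_of_injective`,
  `SimpleGraph.Walk.length_map`).
-/

namespace Vale.Agent.H13.CF

open SimpleGraph Vale.Agent.H29.CR

universe u

/-- Induced subgraphs of claw-free graphs are claw-free. -/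
theorem ClawFree.induce {V : Type u} {G : SimpleGraph V} (h : ClawFree G) (s : Set V) :
    ClawFree (G.induce s) := by
  intro v a b c hva hvb hvc hab hac hbc
  have e1 : (a : V) ≠ (b : V) := fun e => hab (Subtype.ext e)
  have e2 : (a : V) ≠ (c : V) := fun e => hac (Subtype.ext e)
  have e3 : (b : V) ≠ (c : V) := fun e => hbc (Subtype.ext e)
  exact h (v : V) (a : V) (b : V) (c : V) hva hvb hvc e1 e2 e3

/-- A cycle of an induced subgraph is a cycle of the graph. -/
theorem hasCycle_of_induce {V : Type u} {G : SimpleGraph V} (s : Set V) {m : ℕ}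
    (h : HasCycle (G.induce s) m) : HasCycle G m := by
  obtain ⟨v, p, hp, hlen⟩ := h
  have hinj : Function.Injective (SimpleGraph.Embedding.induce (G := G) s).toHom :=
    (SimpleGraph.Embedding.induce (G := G) s).injective
  have hq : (p.map (SimpleGraph.Embedding.induce (G := G) s).toHom).IsCycle :=
    (SimpleGraph.Walk.isCycle_map_iff_of_injective hinj).2 hp
  have hl : (p.map (SimpleGraph.Embedding.induce (G := G) s).toHom).length = m := by
    rw [SimpleGraph.Walk.length_map]
    exact hlen
  exact ⟨_, p.map (SimpleGraph.Embedding.induce (G := G) s).toHom, hq, hl⟩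

end Vale.Agent.H13.CF
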