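import Vale.Agent.H13.CF.Defs
import Vale.Agent.H29.CR.Lower

/-!
# The extremal example is claw-free

`blockGraph f` (disjoint cliques: the fibres of `f`) is claw-free, because two neighbours of a
vertex lie in the same fibre. On a vertex set with at most `(m-1)(n-1)` elements the blocks of
`m - 1` consecutive vertices give a claw-free graph with neither a cycle of length `m` nor an
independent set of `n` vertices (same computation as in `Vale.Agent.H29.CR.lower_example`).
-/

namespace Vale.Agent.H13.CF

open SimpleGraph Vale.Agent.H29.CR

/-- Disjoint unions of cliques are claw-free. -/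
theorem blockGraph_clawFree {V : Type*} (f : V → ℕ) : ClawFree (blockGraph f) := by
  intro v a b c hva hvb _ hab _ _
  exact Or.inl ⟨hab, hva.2.symm.trans hvb.2⟩

/-- Sharpness: on a vertex set with at most `(m-1)(n-1)` elements there is a claw-free graph
which has neither a cycle of length `m` nor an independent set of `n` vertices. -/
theorem cf_lower_example {V : Type*} [Fintype V] (m n : ℕ) (hm : 2 ≤ m) (hn : 1 ≤ n)
    (hN : Fintype.card V ≤ (m - 1) * (n - 1)) :
    ∃ G : SimpleGraph V, ClawFree G ∧ ¬ HasCycle G m ∧
      ∀ s : Finset V, ¬ G.IsNIndepSet n s := by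
  classical
  have hm1 : 0 < m - 1 := by omega
  obtain ⟨e, -⟩ : ∃ e : V ≃ Fin (Fintype.card V), e = Fintype.equivFin V := ⟨_, rfl⟩
  obtain ⟨f, hf⟩ : ∃ f : V → ℕ, f = fun x => (e x).val / (m - 1) := ⟨_, rfl⟩
  have hfx : ∀ x : V, f x = (e x).val / (m - 1) := fun x => by rw [hf]
  have hflt : ∀ x : V, f x < n - 1 := by
    intro x
    have h1 : (e x).val < Fintype.card V := (e x).isLt
    have h2 : (e x).val < (n - 1) * (m - 1) := by
      rw [Nat.mul_comm]
      exact lt_of_lt_of_le h1 hN
    rw [hfx]
    exact (Nat.div_lt_iff_lt_mul hm1).mpr h2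
  refine ⟨blockGraph f, blockGraph_clawFree f, ?_, ?_⟩
  · rintro ⟨v, p, hp, hlen⟩
    have hnd : p.support.tail.Nodup := hp.support_nodup
    have hcard : p.support.tail.toFinset.card = m := by
      rw [List.toFinset_card_of_nodup hnd, List.length_tail, SimpleGraph.Walk.length_support,
        hlen]
      simp
    have hle : p.support.tail.toFinset.card ≤ (Finset.range (m - 1)).card := by
      apply Finset.card_le_card_of_injOn (fun x => (e x).val % (m - 1))
      · intro x _
        exact Finset.mem_range.mpr (Nat.mod_lt _ hm1)
      · intro x hx y hy hxy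
        have hx' : x ∈ p.support := List.mem_of_mem_tail (List.mem_toFinset.mp hx)
        have hy' : y ∈ p.support := List.mem_of_mem_tail (List.mem_toFinset.mp hy)
        have hfx' : f x = f v := lower_walk_const f p x hx'
        have hfy' : f y = f v := lower_walk_const f p y hy'
        have hfxy : (e x).val / (m - 1) = (e y).val / (m - 1) := by
          rw [← hfx x, ← hfx y]
          exact hfx'.trans hfy'.symm
        have hmod : (e x).val % (m - 1) = (e y).val % (m - 1) := hxy
        have h1 := Nat.div_add_mod (e x).val (m - 1)
        have h2 := Nat.div_add_mod (e y).val (m - 1)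
        have h3 : (e x).val = (e y).val := by
          rw [← h1, ← h2, hfxy, hmod]
        exact e.injective (Fin.ext h3)
    rw [hcard, Finset.card_range] at hle
    omega
  · intro s hs
    have hcard : s.card = n := hs.card_eq
    have hlt : (Finset.range (n - 1)).card < s.card := by
      rw [Finset.card_range, hcard]
      omega
    obtain ⟨x, hx, y, hy, hxy, hfxy⟩ :=
      Finset.exists_ne_map_eq_of_card_lt_of_maps_to hlt
        (fun a _ => Finset.mem_range.mpr (hflt a))
    have hind := hs.isIndepSet
    exact hind hx hy hxy ⟨hxy, hfxy⟩

end Vale.Agent.H13.CF
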