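import Vale.Agent.H13.CF.Defs

/-!
# A vertex set without independent triples: Hamiltonian path or two cliques

Proof sketch for `path_or_trans`. Among the duplicate-free chains (for `G.Adj`) all of whose
elements lie in `S` take one, `l`, of greatest length (the empty list qualifies; lengths are at
most `S.card`). If `l.toFinset = S` we are done. Otherwise pick `w ∈ S` outside `l`.
* If `l = []` then `[w]` is longer. So `l ≠ []`.
* If some vertex `w ∈ S` outside `l` is adjacent to some `p ∈ l`: `w` is not adjacent to
  `l.head` (else `w :: l` is longer) and not to `l.getLast` (else `l ++ [w]` is longer), so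
  `p` is neither of them, head and last are different, and the triple `w, head, last` gives
  `G.Adj head last`. Write `l = l₁ ++ p :: l₂` with `l₁ ≠ []`; then
  `w :: (p :: l₂ ++ l₁)` is a longer duplicate-free chain in `S`: contradiction.
* Otherwise there is no edge between `l.toFinset` and `S \ l.toFinset`. For `a, b, c ∈ S` with
  `a ~ b ~ c`, `a ≠ c`: the three lie on the same side; take a vertex `z` of the other side
  (`w`, or an element of `l`); `z` is adjacent to neither `a` nor `c`, so the triple
  `a, c, z` gives `G.Adj a c`.
-/

namespace Vale.Agent.H13.CF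

open SimpleGraph Vale.Agent.H29.CR

variable {V : Type*}

/-- If `S` contains no three pairwise non-adjacent vertices, then either the vertices of `S` can
be listed as a path of `G`, or adjacency is transitive on `S`. -/
theorem path_or_trans [DecidableEq V] (G : SimpleGraph V) (S : Finset V)
    (h3 : ∀ a ∈ S, ∀ b ∈ S, ∀ c ∈ S, a ≠ b → a ≠ c → b ≠ c →
      G.Adj a b ∨ G.Adj a c ∨ G.Adj b c) :
    (∃ l : List V, l.Nodup ∧ l.IsChain G.Adj ∧ l.toFinset = S) ∨
      (∀ a ∈ S, ∀ b ∈ S, ∀ c ∈ S, G.Adj a b → G.Adj b c → a ≠ c → G.Adj a c) := by
  classical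
  have hbound : ∀ l : List V, l.Nodup → (∀ x ∈ l, x ∈ S) → l.length ≤ S.card := by
    intro l hnd hmem
    rw [← List.toFinset_card_of_nodup hnd]
    apply Finset.card_le_card
    intro x hx
    exact hmem x (List.mem_toFinset.1 hx)
  have h0 : ∃ l : List V, l.Nodup ∧ l.IsChain G.Adj ∧ (∀ x ∈ l, x ∈ S) ∧ l.length = 0 :=
    ⟨[], List.nodup_nil, List.isChain_nil, fun x hx => absurd hx List.not_mem_nil, rfl⟩
  obtain ⟨l, hnd, hch, hmem, hlen⟩ := Nat.findGreatest_spec
    (P := fun n => ∃ l : List V, l.Nodup ∧ l.IsChain G.Adj ∧ (∀ x ∈ l, x ∈ S) ∧ l.length = n)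
    (Nat.zero_le S.card) h0
  have hmax : ∀ l' : List V, l'.Nodup → l'.IsChain G.Adj → (∀ x ∈ l', x ∈ S) →
      l'.length ≤ l.length := by
    intro l' hnd' hch' hmem'
    by_contra hcon
    rw [not_le, hlen] at hcon
    exact Nat.findGreatest_is_greatest hcon (hbound l' hnd' hmem') ⟨l', hnd', hch', hmem', rfl⟩
  by_cases hfull : l.toFinset = S
  · exact Or.inl ⟨l, hnd, hch, hfull⟩
  right
  obtain ⟨w, hwS, hwl⟩ : ∃ w ∈ S, w ∉ l := by
    by_contra hcon
    apply hfull
    apply Finset.Subset.antisymm
    · intro x hx
      exact hmem x (List.mem_toFinset.1 hx)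
    · intro x hx
      by_contra hxl
      exact hcon ⟨x, hx, fun h => hxl (List.mem_toFinset.2 h)⟩
  have hlne : l ≠ [] := by
    intro hl
    have hle := hmax [w] (List.nodup_singleton w) (List.isChain_singleton w)
      (fun x hx => by rw [List.mem_singleton.1 hx]; exact hwS)
    rw [hl, List.length_singleton, List.length_nil] at hle
    omega
  have hcons : ∀ z ∈ S, z ∉ l → ¬ G.Adj z (l.head hlne) := by
    intro z hzS hzl hadj
    have hle := hmax (z :: l) (List.nodup_cons.2 ⟨hzl, hnd⟩)
      (hch.cons (fun y hy => by
        rw [List.head?_eq_some_head hlne] at hy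
        rw [← Option.mem_some_iff.1 hy]
        exact hadj))
      (fun x hx => by
        rcases List.mem_cons.1 hx with hx | hx
        · rw [hx]
          exact hzS
        · exact hmem x hx)
    rw [List.length_cons] at hle
    omega
  have hsnoc : ∀ z ∈ S, z ∉ l → ¬ G.Adj (l.getLast hlne) z := by
    intro z hzS hzl hadj
    have hle := hmax (l ++ [z])
      (List.nodup_append.2 ⟨hnd, List.nodup_singleton z, fun x hx y hy hxy => by
        rw [List.mem_singleton.1 hy] at hxy
        rw [hxy] at hx
        exact hzl hx⟩)
      (List.IsChain.append hch (List.isChain_singleton z) (fun x hx y hy => by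
        rw [List.getLast?_eq_some_getLast hlne] at hx
        rw [← Option.mem_some_iff.1 hx]
        have hy' : y = z := by
          have := Option.mem_some_iff.1 hy
          exact this.symm
        rw [hy']
        exact hadj))
      (fun x hx => by
        rcases List.mem_append.1 hx with hx | hx
        · exact hmem x hx
        · rw [List.mem_singleton.1 hx]
          exact hzS)
    rw [List.length_append, List.length_singleton] at hle
    omega
  have hnoedge : ∀ z ∈ S, z ∉ l → ∀ p ∈ l, ¬ G.Adj z p := by
    intro z hzS hzl p hp hadj
    obtain ⟨l₁, l₂, hl⟩ := List.append_of_mem hp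
    by_cases h1 : l₁ = []
    · apply hcons z hzS hzl
      have hh : l.head hlne = p := by
        simp only [hl, h1, List.nil_append, List.head_cons]
      rw [hh]
      exact hadj
    by_cases h2 : l₂ = []
    · apply hsnoc z hzS hzl
      have hh : l.getLast hlne = p := by
        simp only [hl, h2, List.getLast_append_singleton]
      rw [hh]
      exact hadj.symm
    have hhd : l.head hlne = l₁.head h1 := by
      simp only [hl, List.head_append_of_ne_nil h1]
    have hlt : l.getLast hlne = l₂.getLast h2 := by
      simp only [hl]
      rw [List.getLast_append_of_ne_nil (by simp) (List.cons_ne_nil p l₂), List.getLast_cons h2]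
    have hnd' := hnd
    rw [hl, List.nodup_append] at hnd'
    obtain ⟨hnd1, hnd2, hnd12⟩ := hnd'
    have hhdm : l₁.head h1 ∈ l₁ := List.head_mem h1
    have hltm : l₂.getLast h2 ∈ l₂ := List.getLast_mem h2
    have hne : l₁.head h1 ≠ l₂.getLast h2 :=
      hnd12 _ hhdm _ (List.mem_cons_of_mem p hltm)
    have hhdl : l₁.head h1 ∈ l := by
      rw [hl]
      exact List.mem_append_left _ hhdm
    have hltl : l₂.getLast h2 ∈ l := by
      rw [hl]
      exact List.mem_append_right _ (List.mem_cons_of_mem p hltm)
    have hz1 : z ≠ l₁.head h1 := fun h => hzl (by rw [h]; exact hhdl)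
    have hz2 : z ≠ l₂.getLast h2 := fun h => hzl (by rw [h]; exact hltl)
    rcases h3 z hzS _ (hmem _ hhdl) _ (hmem _ hltl) hz1 hz2 hne with h | h | h
    · apply hcons z hzS hzl
      rw [hhd]
      exact h
    · apply hsnoc z hzS hzl
      rw [hlt]
      exact h.symm
    · have hch' := hch
      rw [hl] at hch'
      have hmem' : ∀ x, x ∈ (p :: l₂) ++ l₁ ↔ x ∈ l := by
        intro x
        rw [hl, List.mem_append, List.mem_append]
        exact Or.comm
      have hle := hmax (z :: ((p :: l₂) ++ l₁))
        (List.nodup_cons.2 ⟨fun hx => hzl ((hmem' z).1 hx), by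
          rw [List.nodup_append_comm]
          rw [hl] at hnd
          exact hnd⟩)
        (List.IsChain.cons
          (List.IsChain.append hch'.right_of_append hch'.left_of_append (fun x hx y hy => by
            rw [List.getLast?_eq_some_getLast (List.cons_ne_nil p l₂), List.getLast_cons h2] at hx
            rw [List.head?_eq_some_head h1] at hy
            rw [← Option.mem_some_iff.1 hx, ← Option.mem_some_iff.1 hy]
            exact h.symm))
          (fun y hy => by
            have hy' : y = p := by
              have := Option.mem_some_iff.1 hy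
              exact this.symm
            rw [hy']
            exact hadj))
        (fun x hx => by
          rcases List.mem_cons.1 hx with hx | hx
          · rw [hx]
            exact hzS
          · exact hmem x ((hmem' x).1 hx))
      have hlen' : (z :: ((p :: l₂) ++ l₁)).length = l.length + 1 := by
        rw [hl]
        simp only [List.length_cons, List.length_append]
        omega
      omega
  have hside : ∀ x ∈ S, ∀ y ∈ S, G.Adj x y → (x ∈ l ↔ y ∈ l) := by
    intro x hx y hy hxy
    constructor
    · intro hxl
      by_contra hyl
      exact hnoedge y hy hyl x hxl hxy.symm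
    · intro hyl
      by_contra hxl
      exact hnoedge x hx hxl y hyl hxy
  intro a ha b hb c hc hab hbc hac
  by_cases hal : a ∈ l
  · have hbl := (hside a ha b hb hab).1 hal
    have hcl := (hside b hb c hc hbc).1 hbl
    rcases h3 a ha c hc w hwS hac (fun h => hwl (by rw [← h]; exact hal))
      (fun h => hwl (by rw [← h]; exact hcl)) with h | h | h
    · exact h
    · exact absurd h.symm (hnoedge w hwS hwl a hal)
    · exact absurd h.symm (hnoedge w hwS hwl c hcl)
  · have hbl : b ∉ l := fun h => hal ((hside a ha b hb hab).2 h)
    have hcl : c ∉ l := fun h => hbl ((hside b hb c hc hbc).2 h)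
    have hz := List.head_mem hlne
    rcases h3 a ha c hc (l.head hlne) (hmem _ hz) hac (fun h => hal (by rw [h]; exact hz))
      (fun h => hcl (by rw [h]; exact hz)) with h | h | h
    · exact h
    · exact absurd h (hnoedge a ha hal _ hz)
    · exact absurd h (hnoedge c hc hcl _ hz)

end Vale.Agent.H13.CF
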