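import Vale.Agent.H13.CF.Indep
import Vale.Agent.H13.CF.Dia
import Vale.Agent.H13.CF.Induce

/-!
# Induction on `n`: deleting a vertex of small degree together with its neighbours

Proof sketches.
* `clawfree_core`: induction on `n`. For `n = 0` take `∅`. For `n + 1`: if `n = 0` the vertex
  set is not empty, take a singleton. Otherwise, if some vertex `v` has `G.degree v + 2 ≤ m`,
  let `s = {u | u ≠ v ∧ ¬ G.Adj v u}`; the subtype has at least
  `Fintype.card V - 1 - G.degree v > (m - 1) * (n - 1)` elements, `G.induce s` is claw-free
  without cycle of length `m` (`ClawFree.induce`, `hasCycle_of_induce`), so the induction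
  hypothesis gives an independent set `t` of `n` vertices of `G.induce s`; `insert v (t.map (Function.Embedding.subtype _))` is independent in
  `G` with `n + 1` elements. If there is no such vertex, `Std G m` holds, `Std.dia` and
  `Std.exists_indep` give an independent set with at least `m ≥ n + 1` vertices; take a subset
  with `n + 1` elements.
-/

namespace Vale.Agent.H13.CF

open SimpleGraph Vale.Agent.H29.CR

universe u

/-- The number of vertices which are neither `v` nor neighbours of `v`. -/
theorem cfreduce_card {V : Type u} [Fintype V] [DecidableEq V] (G : SimpleGraph V)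
    [DecidableRel G.Adj] (v : V) [Fintype ↥({u | u ≠ v ∧ ¬ G.Adj v u} : Set V)] :
    Fintype.card V ≤
      Fintype.card ↥({u | u ≠ v ∧ ¬ G.Adj v u} : Set V) + (G.degree v + 1) := by
  classical
  have h1 : Fintype.card ↥({u | u ≠ v ∧ ¬ G.Adj v u} : Set V) =
      ((Finset.univ : Finset V).filter (fun u => u ≠ v ∧ ¬ G.Adj v u)).card := by
    apply Fintype.card_of_subtype
    intro x
    simp
  have h2 : ((Finset.univ : Finset V).filter (fun u => u ≠ v ∧ ¬ G.Adj v u)).card +
      ((Finset.univ : Finset V).filter (fun u => ¬ (u ≠ v ∧ ¬ G.Adj v u))).card =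
      Fintype.card V := by
    rw [Finset.card_filter_add_card_filter_not]
    exact Finset.card_univ
  have h3 : ((Finset.univ : Finset V).filter (fun u => ¬ (u ≠ v ∧ ¬ G.Adj v u))).card ≤
      G.degree v + 1 := by
    have hsub : (Finset.univ : Finset V).filter (fun u => ¬ (u ≠ v ∧ ¬ G.Adj v u)) ⊆
        insert v (G.neighborFinset v) := by
      intro x hx
      rw [Finset.mem_filter] at hx
      rw [Finset.mem_insert, SimpleGraph.mem_neighborFinset]
      by_cases hxv : x = v
      · exact Or.inl hxv
      · right
        by_contra hadj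
        exact hx.2 ⟨hxv, hadj⟩
    refine le_trans (Finset.card_le_card hsub) ?_
    refine le_trans (Finset.card_insert_le _ _) ?_
    rw [SimpleGraph.card_neighborFinset_eq_degree]
  omega

/-- Core statement, by induction on `n`. -/
theorem clawfree_core (m : ℕ) (hm : 6 ≤ m) :
    ∀ n, n ≤ m → ∀ (V : Type u) [Fintype V] [DecidableEq V] (G : SimpleGraph V)
      [DecidableRel G.Adj], ClawFree G → ¬ HasCycle G m →
      (m - 1) * (n - 1) < Fintype.card V → ∃ s : Finset V, G.IsNIndepSet n s := by
  intro n
  induction n with
  | zero =>
    intro _ V _ _ G _ _ _ _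
    refine ⟨∅, ?_⟩
    rw [SimpleGraph.isNIndepSet_iff]
    simp
  | succ n ih =>
    intro hn V _ _ G _ hclaw hnc hcard
    classical
    rcases Nat.eq_zero_or_pos n with h0 | hpos
    · subst h0
      have hpos : 0 < Fintype.card V := by omega
      obtain ⟨v⟩ := Fintype.card_pos_iff.mp hpos
      refine ⟨{v}, ?_⟩
      rw [SimpleGraph.isNIndepSet_iff]
      simp
    · by_cases hdeg : ∃ v, G.degree v + 2 ≤ m
      · obtain ⟨v, hv⟩ := hdeg
        have hc := cfreduce_card G v
        have hcs : (m - 1) * (n - 1) < Fintype.card ↥({u | u ≠ v ∧ ¬ G.Adj v u} : Set V) := by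
          have e1 : (m - 1) * (n + 1 - 1) = (m - 1) * (n - 1) + (m - 1) := by
            have : n + 1 - 1 = (n - 1) + 1 := by omega
            rw [this, Nat.mul_succ]
          omega
        obtain ⟨t, ht⟩ := ih (by omega) (↥({u | u ≠ v ∧ ¬ G.Adj v u} : Set V))
          (G.induce ({u | u ≠ v ∧ ¬ G.Adj v u} : Set V)) (hclaw.induce _)
          (fun h => hnc (hasCycle_of_induce _ h)) hcs
        rw [SimpleGraph.isNIndepSet_iff] at ht
        refine ⟨insert v (t.map (Function.Embedding.subtype _)), ?_⟩
        rw [SimpleGraph.isNIndepSet_iff]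
        have hmem : ∀ x ∈ t.map (Function.Embedding.subtype
            (fun u => u ∈ ({u | u ≠ v ∧ ¬ G.Adj v u} : Set V))), x ≠ v ∧ ¬ G.Adj v x := by
          intro x hx
          rw [Finset.mem_map] at hx
          obtain ⟨y, -, rfl⟩ := hx
          exact y.2
        constructor
        · intro x hx y hy hxy
          rw [Finset.coe_insert, Set.mem_insert_iff, Finset.mem_coe] at hx hy
          rcases hx with rfl | hx
          · rcases hy with rfl | hy
            · exact absurd rfl hxy
            · exact (hmem y hy).2
          · rcases hy with rfl | hy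
            · exact fun h => (hmem x hx).2 h.symm
            · rw [Finset.mem_map] at hx hy
              obtain ⟨x', hx', rfl⟩ := hx
              obtain ⟨y', hy', rfl⟩ := hy
              have hne : x' ≠ y' := fun h => hxy (congrArg _ h)
              have := ht.1 (Finset.mem_coe.mpr hx') (Finset.mem_coe.mpr hy') hne
              exact this
        · rw [Finset.card_insert_of_notMem, Finset.card_map, ht.2]
          intro hv'
          exact (hmem v hv').1 rfl
      · have hdeg' : ∀ v, ¬ (G.degree v + 2 ≤ m) := fun v hv => hdeg ⟨v, hv⟩
        have hstd : Std G m := ⟨hclaw, hnc, hm, fun v => by have := hdeg' v; omega⟩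
        have hne : Nonempty V := by
          apply Fintype.card_pos_iff.mp
          omega
        obtain ⟨s, hs, hsc⟩ := hstd.exists_indep hstd.dia
        obtain ⟨t, hts, htc⟩ := Finset.exists_subset_card_eq (show n + 1 ≤ s.card by omega)
        refine ⟨t, ?_⟩
        rw [SimpleGraph.isNIndepSet_iff]
        exact ⟨hs.mono (by exact_mod_cast hts), htc⟩

end Vale.Agent.H13.CF
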