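import Vale.Agent.H13.CF.Clq2
import Vale.Agent.H13.CF.ExpandN

/-!
# Far neighbours of the outer vertices: pairwise different, pairwise non-adjacent, away from `K`

Standing: `h : Std G m`, `hd : DiamondFree G`, `hvy : G.Adj v y`, `K = Kq G v y`, `x ∈ K`,
`w ∈ Wq G v y x` (so `x ~ w`, `w ∉ K`), `hu : Far G x w u` (so `w ~ u`, `u ≠ x`, `u` is not
adjacent to `x`); similarly `x', w', u'`. Proof sketches (every cycle found contradicts
`h.nocyc`; the degree hypothesis of the expansion lemmas is `h.deg`).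
* `far_not_mem`: if `u ∈ K` then `Kq_unique` (with `k = u ≠ x`) says `w` is not adjacent to `u`.
* `far_not_adj`: suppose `u ~ k`, `k ∈ K`. Then `k ≠ x`, so `k ~ x` (`Kq_clique`), and
  `hasCycle_expand4` applies to the 4-cycle `x, w, u, k`: `w` is not adjacent to `k`
  (`Kq_unique`), `x` is not adjacent to `u`; the four vertices are different (`w ∉ K`,
  `u ∉ K` by `far_not_mem`).
* `far_ne`: suppose `u = u'`.
  If `x = x'`: `w ~ w'` (`Wq_clique`); inside the neighbourhood of `w` we have `x ~ w' ~ u`, so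
  `x ~ u` by `hd`: contradiction.
  If `x ≠ x'`: `hasCycle_expand5` applies to the 5-cycle `x, w, u, w', x'`: `w` is not adjacent
  to `x'` and `w'` is not adjacent to `x` (`Kq_unique`), `x` is not adjacent to `u`; the five
  vertices are different (`w, w', u ∉ K`, `w ≠ w'`, `u ≠ x`, `u = u' ≠ x'`).
* `far_not_adj_far`: suppose `u ~ u'`.
  If `x = x'`: `w ~ w'`; `u` is not adjacent to `w'` (else `x ~ w' ~ u` inside the neighbourhood
  of `w` gives `x ~ u`), `w` is not adjacent to `u'` (else `x ~ w ~ u'` inside the neighbourhood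
  of `w'` gives `x ~ u'`); `hasCycle_expand4` applies to the 4-cycle `w, u, u', w'` at the
  vertex `w` (`w ≠ u'` because `x ~ w`; `u ≠ w'` because `x ~ w'`).
  If `x ≠ x'`: `hasCycle_expand6` applies to the 6-cycle `x, w, u, u', w', x'`: `w` is not
  adjacent to `x'`, `w'` is not adjacent to `x` (`Kq_unique`), `x` is adjacent to neither `u`
  nor `u'` (`far_not_adj` for `u'` and `k = x`); the six vertices are different
  (`w, w', u, u' ∉ K`; `w ≠ u'` and `u ≠ w'` by `far_not_adj`, as `w ~ x` and `w' ~ x'`).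
-/

namespace Vale.Agent.H13.CF

open SimpleGraph Vale.Agent.H29.CR

variable {V : Type*} [Fintype V] [DecidableEq V] {G : SimpleGraph V} [DecidableRel G.Adj]
  {m : ℕ}

theorem Std.far_not_mem (h : Std G m) (hd : DiamondFree G) {v y : V} (hvy : G.Adj v y)
    {x w u : V} (hx : x ∈ Kq G v y) (hw : w ∈ Wq G v y x) (hu : Far G x w u) :
    u ∉ Kq G v y := by
  intro huK
  have hw' := mem_Wq.mp hw
  exact Kq_unique hd hvy hx hw'.2 hw'.1 huK hu.2.1 hu.1

theorem Std.far_not_adj (h : Std G m) (hd : DiamondFree G) {v y : V} (hvy : G.Adj v y)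
    {x w u k : V} (hx : x ∈ Kq G v y) (hw : w ∈ Wq G v y x) (hu : Far G x w u)
    (hk : k ∈ Kq G v y) : ¬ G.Adj u k := by
  intro huk
  have hw' := mem_Wq.mp hw
  have hxw : G.Adj x w := hw'.1
  have hwu : G.Adj w u := hu.1
  have hux : u ≠ x := hu.2.1
  have hnxu : ¬ G.Adj x u := hu.2.2
  have hkx : k ≠ x := by
    rintro rfl
    exact hnxu huk.symm
  have hkxadj : G.Adj k x := Kq_clique hd hvy hk hx hkx
  have hwk : ¬ G.Adj w k := Kq_unique hd hvy hx hw'.2 hxw hk hkx
  have hwK : w ≠ k := by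
    rintro rfl
    exact hw'.2 hk
  have hm4 : 4 ≤ m := le_trans (by norm_num) h.hm
  have hne : [x, w, u, k].Nodup := by
    simp [hxw.ne, hxw.ne.symm, hux, hux.symm, hkx, hkx.symm, hwu.ne, hwu.ne.symm, hwK,
      hwK.symm, huk.ne, huk.ne.symm]
  exact h.nocyc (hasCycle_expand4 G m h.claw hd hm4 x w u k (h.deg x) hxw hwu huk hkxadj
    hwk hnxu hne)

theorem Std.far_ne (h : Std G m) (hd : DiamondFree G) {v y : V} (hvy : G.Adj v y)
    {x w u x' w' u' : V} (hx : x ∈ Kq G v y) (hw : w ∈ Wq G v y x) (hu : Far G x w u)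
    (hx' : x' ∈ Kq G v y) (hw' : w' ∈ Wq G v y x') (hu' : Far G x' w' u') (hne : w ≠ w') :
    u ≠ u' := by
  rintro rfl
  have hwm := mem_Wq.mp hw
  have hwm' := mem_Wq.mp hw'
  have hxw : G.Adj x w := hwm.1
  have hxw' : G.Adj x' w' := hwm'.1
  have hwu : G.Adj w u := hu.1
  have hwu' : G.Adj w' u := hu'.1
  have hux : u ≠ x := hu.2.1
  have hux' : u ≠ x' := hu'.2.1
  have hnxu : ¬ G.Adj x u := hu.2.2
  by_cases hxx : x = x'
  · subst hxx
    have hww : G.Adj w w' := h.Wq_clique hd hvy hx hw hw' hne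
    exact hnxu (hd w x w' u hxw.symm hww hwu hxw' hwu' hux.symm)
  · have hxx' : x' ≠ x := fun e => hxx e.symm
    have hx'x : G.Adj x' x := Kq_clique hd hvy hx' hx hxx'
    have hwx' : ¬ G.Adj w x' := Kq_unique hd hvy hx hwm.2 hxw hx' hxx'
    have hw'x : ¬ G.Adj w' x := Kq_unique hd hvy hx' hwm'.2 hxw' hx hxx
    have hxw'n : ¬ G.Adj x w' := fun e => hw'x e.symm
    have hxw'ne : x ≠ w' := by
      rintro rfl
      exact hwm'.2 hx
    have hwx'ne : w ≠ x' := by
      rintro rfl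
      exact hwm.2 hx'
    have hm5 : 5 ≤ m := le_trans (by norm_num) h.hm
    have hnd : [x, w, u, w', x'].Nodup := by
      simp [hxw.ne, hxw.ne.symm, hux, hux.symm, hxw'ne, hxw'ne.symm, hxx, hxx', hwu.ne,
        hwu.ne.symm, hne, hne.symm, hwx'ne, hwx'ne.symm, hwu'.ne, hwu'.ne.symm, hux',
        hux'.symm, hxw'.ne, hxw'.ne.symm]
    exact h.nocyc (hasCycle_expand5 G m h.claw hd hm5 x w u w' x' (h.deg x) hxw hwu hwu'.symm
      hxw'.symm hx'x hwx' hnxu hxw'n hnd)

theorem Std.far_not_adj_far (h : Std G m) (hd : DiamondFree G) {v y : V} (hvy : G.Adj v y)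
    {x w u x' w' u' : V} (hx : x ∈ Kq G v y) (hw : w ∈ Wq G v y x) (hu : Far G x w u)
    (hx' : x' ∈ Kq G v y) (hw' : w' ∈ Wq G v y x') (hu' : Far G x' w' u') (hne : w ≠ w') :
    ¬ G.Adj u u' := by
  intro huu
  have hwm := mem_Wq.mp hw
  have hwm' := mem_Wq.mp hw'
  have hxw : G.Adj x w := hwm.1
  have hxw' : G.Adj x' w' := hwm'.1
  have hwu : G.Adj w u := hu.1
  have hwu' : G.Adj w' u' := hu'.1
  have hux : u ≠ x := hu.2.1
  have hux' : u' ≠ x' := hu'.2.1
  have hnxu : ¬ G.Adj x u := hu.2.2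
  have hnxu' : ¬ G.Adj x' u' := hu'.2.2
  by_cases hxx : x = x'
  · subst hxx
    have hww : G.Adj w w' := h.Wq_clique hd hvy hx hw hw' hne
    have huw' : ¬ G.Adj u w' := fun e => hnxu (hd w x w' u hxw.symm hww hwu hxw' e.symm hux.symm)
    have hwu'n : ¬ G.Adj w u' := fun e =>
      hnxu' (hd w' x w u' hxw'.symm hww.symm hwu' hxw e hux'.symm)
    have hwu'ne : w ≠ u' := by
      rintro rfl
      exact hnxu' hxw
    have huw'ne : u ≠ w' := by
      rintro rfl
      exact hnxu hxw'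
    have hm4 : 4 ≤ m := le_trans (by norm_num) h.hm
    have hnd : [w, u, u', w'].Nodup := by
      simp [hwu.ne, hwu.ne.symm, hwu'ne, hwu'ne.symm, hne, hne.symm, huu.ne, huu.ne.symm,
        huw'ne, huw'ne.symm, hwu'.ne, hwu'.ne.symm]
    exact h.nocyc (hasCycle_expand4 G m h.claw hd hm4 w u u' w' (h.deg w) hwu huu hwu'.symm
      hww.symm huw' hwu'n hnd)
  · have hxx' : x' ≠ x := fun e => hxx e.symm
    have hx'x : G.Adj x' x := Kq_clique hd hvy hx' hx hxx'
    have hwx' : ¬ G.Adj w x' := Kq_unique hd hvy hx hwm.2 hxw hx' hxx'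
    have hw'x : ¬ G.Adj w' x := Kq_unique hd hvy hx' hwm'.2 hxw' hx hxx
    have hxw'n : ¬ G.Adj x w' := fun e => hw'x e.symm
    have hu'x : ¬ G.Adj u' x := h.far_not_adj hd hvy hx' hw' hu' hx
    have hxu'n : ¬ G.Adj x u' := fun e => hu'x e.symm
    have hux'n : ¬ G.Adj u x' := h.far_not_adj hd hvy hx hw hu hx'
    have huK : u ∉ Kq G v y := h.far_not_mem hd hvy hx hw hu
    have hu'K : u' ∉ Kq G v y := h.far_not_mem hd hvy hx' hw' hu'
    have hxu'ne : x ≠ u' := by
      rintro rfl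
      exact hu'K hx
    have hxw'ne : x ≠ w' := by
      rintro rfl
      exact hwm'.2 hx
    have hwu'ne : w ≠ u' := by
      rintro rfl
      exact hu'x hxw.symm
    have hwx'ne : w ≠ x' := by
      rintro rfl
      exact hwm.2 hx'
    have huw'ne : u ≠ w' := by
      rintro rfl
      exact hux'n hxw'.symm
    have hux'ne : u ≠ x' := by
      rintro rfl
      exact huK hx'
    have hnd : [x, w, u, u', w', x'].Nodup := by
      simp [hxw.ne, hxw.ne.symm, hux, hux.symm, hxu'ne, hxu'ne.symm, hxw'ne, hxw'ne.symm, hxx,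
        hxx', hwu.ne, hwu.ne.symm, hwu'ne, hwu'ne.symm, hne, hne.symm, hwx'ne, hwx'ne.symm,
        huu.ne, huu.ne.symm, huw'ne, huw'ne.symm, hux'ne, hux'ne.symm, hwu'.ne, hwu'.ne.symm,
        hux', hux'.symm, hxw'.ne, hxw'.ne.symm]
    exact h.nocyc (hasCycle_expand6 G m h.claw hd h.hm x w u u' w' x' (h.deg x) hxw hwu huu
      hwu'.symm hxw'.symm hx'x hwx' hnxu hxu'n hxw'n hnd)

end Vale.Agent.H13.CF
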